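import Vale.Agent.P196_h16.Final

/-!
# Obstructions to infinite finitely presented simple (amenable) groups

All known infinite finitely generated simple amenable groups act nontrivially with orbits whose
Schreier graphs look one-dimensional (bounded displacement on `ℤ`, linear growth).  We show that
this is impossible for infinite finitely presented simple groups.
-/

set_option autoImplicit false

open Pointwise

namespace Vale.Agent.Results.P196.LinearOrbits

universe u v

/-- `g` belongs to the topological full group `[[φ]]` of the homeomorphism `φ` of `X`: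
there are a finite partition of `X` into clopen sets `U i` and integers `n i` such that
`g` coincides with `φ ^ (n i)` on `U i`. -/
def InTopologicalFullGroup {X : Type u} [TopologicalSpace X] (φ g : X ≃ₜ X) : Prop :=
  ∃ (k : ℕ) (U : Fin k → Set X) (n : Fin k → ℤ),
    (∀ i, IsClopen (U i)) ∧ (∀ i j, i ≠ j → Disjoint (U i) (U j)) ∧
    (⋃ i, U i) = Set.univ ∧ ∀ i, ∀ x ∈ U i, g x = (φ ^ n i) x

theorem no_finite_quotient {G : Type u} [Group G] [IsSimpleGroup G] [Infinite G]
    (N : Subgroup G) (h1 : N.Normal) (h2 : N.FiniteIndex) : N = ⊤ := by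
  by_contra h
  exact not_finite_iff_infinite.2 ‹Infinite G› (P196.finite_of_simple ⟨N, h1, h2, h⟩)

theorem coe_zpow {X : Type u} [TopologicalSpace X] (φ : X ≃ₜ X) (n : ℤ) (x : X) :
    (φ ^ n) x = ((φ.toEquiv : Equiv.Perm X) ^ n) x := by
  let f : (X ≃ₜ X) →* Equiv.Perm X :=
    { toFun := fun g => g.toEquiv
      map_one' := rfl
      map_mul' := fun _ _ => rfl }
  have h : f (φ ^ n) = (f φ) ^ n := map_zpow f φ n
  exact congrArg (fun e : Equiv.Perm X => e x) h

/-- **Result.**
(A) Let `G` be an infinite finitely presented simple group with finite generating set `S`.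
There is `c > 0` such that for every action of `G` and every point `x` which is not fixed by
`G`, the `n`-ball around `x` in the Schreier graph has at least `c n log n / log log n` points
for all large `n` (uniformly in the action).  In particular no such `G` has a nontrivial action
with an orbit of linear growth.
(B) For every homeomorphism `φ` of every topological space (minimal or not), each finitely
presented simple subgroup of the topological full group `[[φ]]` is finite.
(C) If a finitely presented group `G` acts on `Ω` such that all finite subsets of `Ω` are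
contained in finite sets with uniformly bounded boundary in the Schreier graph, then each
`g ∈ G` moving infinitely many points lies outside some normal subgroup of finite index. -/
theorem result :
    (∀ (G : Type u) [Group G] [Group.IsFinitelyPresented G] [IsSimpleGroup G] [Infinite G]
      (S : Set G), S.Finite → Subgroup.closure S = ⊤ →
      ∃ c : ℝ, 0 < c ∧ ∃ n₀ : ℕ, ∀ (Ω : Type v) [MulAction G Ω] (x : Ω),
        (∃ g : G, g • x ≠ x) → ∀ n : ℕ, n₀ ≤ n →
          c * (n * Real.log n / Real.log (Real.log n)) ≤
            (((fun g : G => g • x) '' (({1} ∪ S ∪ S⁻¹) ^ n)).ncard : ℝ)) ∧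
    (∀ (X : Type u) [TopologicalSpace X] (φ : X ≃ₜ X) (H : Subgroup (X ≃ₜ X))
      [Group.IsFinitelyPresented H] [IsSimpleGroup H],
      (∀ h ∈ H, InTopologicalFullGroup φ h) → Finite H) ∧
    (∀ (G : Type u) [Group G] [Group.IsFinitelyPresented G] (Ω : Type v) [MulAction G Ω]
      (S : Set G), Subgroup.closure S = ⊤ → ∀ C : ℕ,
      (∀ K : Set Ω, K.Finite → ∃ F : Set Ω, F.Finite ∧ K ⊆ F ∧
        {y | y ∈ F ∧ ∃ s ∈ S, s • y ∉ F}.ncard ≤ C) →
      ∀ g : G, {x : Ω | g • x ≠ x}.Infinite →
        ∃ N : Subgroup G, N.Normal ∧ N.FiniteIndex ∧ g ∉ N) := by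
  refine ⟨?_, ?_, ?_⟩
  · intro G _ _ _ _ S hS hgen
    exact P196.gap no_finite_quotient hS hgen
  · intro X _ φ H _ _ hH
    let act : MulAction H X :=
      { smul := fun h x => (h : X ≃ₜ X) x
        one_smul := fun _ => rfl
        mul_smul := fun _ _ _ => rfl }
    obtain ⟨h₀, hh₀⟩ := exists_ne (1 : H)
    obtain ⟨x₀, hx₀⟩ : ∃ x : X, h₀ • x ≠ x := by
      by_contra hcon
      push Not at hcon
      apply hh₀
      apply Subtype.ext
      apply Homeomorph.ext
      intro x
      exact hcon x
    refine P196.full_group (φ.toEquiv : Equiv.Perm X) (G := H) ?_ hx₀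
    intro g
    obtain ⟨k, U, n, -, -, hU, hg⟩ := hH g g.2
    refine ⟨∑ i, (n i).natAbs, fun x => ?_⟩
    obtain ⟨i, hi⟩ : ∃ i, x ∈ U i := by
      have : x ∈ ⋃ i, U i := by rw [hU]; trivial
      simpa using this
    refine ⟨n i, ?_, ?_⟩
    · rw [Int.abs_eq_natAbs]
      exact_mod_cast Finset.single_le_sum (f := fun i => (n i).natAbs)
        (fun _ _ => Nat.zero_le _) (Finset.mem_univ i)
    · rw [← coe_zpow]
      exact hg i x hi
  · intro G _ _ Ω _ S hgen C hcut g hg
    exact P196.exists_finiteIndex hgen C hcut g hg

end Vale.Agent.Results.P196.LinearOrbits
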